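import Vale.Agent.Lib.P038.SatK.I.P5_1.H
noncomputable section
namespace Vale.Agent.Lib.P038.SatK.I.P5_1.S0
open Vale.Agent.Lib.P038.Sat Vale.Agent.Lib.P038.SatK Vale.Agent.Lib.P038.SatK.I.P5_1
def b0 : List Nat := [nat_lit 562949953421335,nat_lit 3459890422351282241,nat_lit 4036210445789577073,nat_lit 577516309269462865,nat_lit 5765240876091834387,nat_lit 1153836341264400257,nat_lit 2883148238054113185,nat_lit 2306617125563154513,nat_lit 211174952009767]
def p0 : List Nat := [nat_lit 4503599627419648,nat_lit 9007199254798336,nat_lit 13510798882119680,nat_lit 18014398509563904,nat_lit 22517998136958981,nat_lit 27024346543390725,nat_lit 31527946170753031,nat_lit 4398516273159]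
def o0 : List Nat := [nat_lit 7]
theorem ok : segCheck (Gen.gen sh_5_1_0_f (flP 5 1)) W M GT 4 0 1 H [b0] [] [p0] [o0] = true := by decide +kernel
theorem seg {τ : Nat → Bool} (hgen : ∀ t c, Gen.gen sh_5_1_0_f (flP 5 1) t = some c → holdsG τ c)
  (hin : ∀ g, g < 0 → HL W (loc GT τ) (getB H g)) :
  ∀ g, 0 ≤ g → g < 1 → HL W (loc GT τ) (getB H g) :=
  segCheck_sound ok hgen hin
end Vale.Agent.Lib.P038.SatK.I.P5_1.S0
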